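import Mathlib

/-!
P243, general convex bodies (helper15's proof, thread P243 #2414/#2415), LEMMA S, STEP 2:
the section of a compact convex set `K` by the plane `e0 + ℝ w + ℝ u` (`u`, `w` orthonormal,
`e0 ∈ K`), written in the coordinates `X t z = e0 + t • w + z • u`.  The section is
`{(t, z) : -r' ≤ t ≤ r, Zm t ≤ z ≤ Zp t}` with `Zp` concave and `Zm` convex on `[-r', r]`.
-/

namespace Vale.Agent.H24.P243N

open Set

variable {E : Type*} [NormedAddCommGroup E] [InnerProductSpace ℝ E]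

/-- coordinates in the frame `(w, u)`: convex combinations. -/
theorem frame_comb (u w e0 : E) (a b t1 z1 t2 z2 : ℝ) (hab : a + b = 1) :
    a • (e0 + t1 • w + z1 • u) + b • (e0 + t2 • w + z2 • u)
      = e0 + (a * t1 + b * t2) • w + (a * z1 + b * z2) • u := by
  have hb : b = 1 - a := by linarith
  subst hb
  module

/-- the `u`-coordinate. -/
theorem frame_inner_u (u w e0 : E) (hu : ‖u‖ = 1) (huw : inner ℝ u w = 0) (t z : ℝ) :
    inner ℝ (e0 + t • w + z • u - e0) u = z := by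
  have hwu : inner ℝ w u = 0 := by rw [real_inner_comm]; exact huw
  have h1 : e0 + t • w + z • u - e0 = t • w + z • u := by abel
  rw [h1, inner_add_left, real_inner_smul_left, real_inner_smul_left, hwu,
    real_inner_self_eq_norm_sq, hu]
  ring

/-- the `w`-coordinate. -/
theorem frame_inner_w (u w e0 : E) (hw : ‖w‖ = 1) (huw : inner ℝ u w = 0) (t z : ℝ) :
    inner ℝ (e0 + t • w + z • u - e0) w = t := by
  have h1 : e0 + t • w + z • u - e0 = t • w + z • u := by abel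
  rw [h1, inner_add_left, real_inner_smul_left, real_inner_smul_left, huw,
    real_inner_self_eq_norm_sq, hw]
  ring

/-- LEMMA S, STEP 2: the plane section of a compact convex set through `e0 ∈ K`. -/
theorem plane_section (K : Set E) (hKconv : Convex ℝ K) (hKcomp : IsCompact K)
    (u w e0 : E) (hu : ‖u‖ = 1) (hw : ‖w‖ = 1) (huw : inner ℝ u w = 0) (h0 : e0 ∈ K) :
    ∃ (r' r : ℝ) (Zp Zm : ℝ → ℝ), 0 ≤ r' ∧ 0 ≤ r ∧
      (∀ t z : ℝ, e0 + t • w + z • u ∈ K ↔ t ∈ Icc (-r') r ∧ Zm t ≤ z ∧ z ≤ Zp t) ∧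
      ConcaveOn ℝ (Icc (-r') r) Zp ∧ ConvexOn ℝ (Icc (-r') r) Zm ∧
      (∀ t ∈ Icc (-r') r, Zm t ≤ Zp t) := by
  classical
  obtain ⟨M, hM⟩ : ∃ M : ℝ, ∀ y ∈ K, ‖y - e0‖ ≤ M := by
    obtain ⟨M, hM⟩ := hKcomp.isBounded.exists_norm_le
    exact ⟨M + ‖e0‖, fun y hy => (norm_sub_le y e0).trans (by linarith [hM y hy])⟩
  have hzb : ∀ t z : ℝ, e0 + t • w + z • u ∈ K → |z| ≤ M := by
    intro t z h
    have h1 := abs_real_inner_le_norm (e0 + t • w + z • u - e0) u
    rw [frame_inner_u u w e0 hu huw, hu, mul_one] at h1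
    exact h1.trans (hM _ h)
  have htb : ∀ t z : ℝ, e0 + t • w + z • u ∈ K → |t| ≤ M := by
    intro t z h
    have h1 := abs_real_inner_le_norm (e0 + t • w + z • u - e0) w
    rw [frame_inner_w u w e0 hw huw, hw, mul_one] at h1
    exact h1.trans (hM _ h)
  -- the section in coordinates
  let C : Set (ℝ × ℝ) := {p | e0 + p.1 • w + p.2 • u ∈ K}
  have hCclosed : IsClosed C := by
    have hcont : Continuous fun p : ℝ × ℝ => e0 + p.1 • w + p.2 • u := by fun_prop
    exact hKcomp.isClosed.preimage hcont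
  have hCsub : C ⊆ Icc (-M) M ×ˢ Icc (-M) M := by
    intro p hp
    exact ⟨abs_le.mp (htb p.1 p.2 hp), abs_le.mp (hzb p.1 p.2 hp)⟩
  have hCcomp : IsCompact C :=
    IsCompact.of_isClosed_subset (isCompact_Icc.prod isCompact_Icc) hCclosed hCsub
  let J : Set ℝ := {t | ∃ z : ℝ, e0 + t • w + z • u ∈ K}
  have hJeq : J = Prod.fst '' C := by
    ext t
    constructor
    · rintro ⟨z, hz⟩
      exact ⟨(t, z), hz, rfl⟩
    · rintro ⟨p, hp, rfl⟩
      exact ⟨p.2, hp⟩
  have hJclosed : IsClosed J := by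
    rw [hJeq]; exact (hCcomp.image continuous_fst).isClosed
  have h0J : (0:ℝ) ∈ J := ⟨0, by simpa using h0⟩
  have hJne : J.Nonempty := ⟨0, h0J⟩
  have hJbb : BddBelow J := ⟨-M, fun t ⟨z, hz⟩ => (abs_le.mp (htb t z hz)).1⟩
  have hJba : BddAbove J := ⟨M, fun t ⟨z, hz⟩ => (abs_le.mp (htb t z hz)).2⟩
  have haJ : sInf J ∈ J := hJclosed.csInf_mem hJne hJbb
  have hbJ : sSup J ∈ J := hJclosed.csSup_mem hJne hJba
  have hJconv : Convex ℝ J := by
    rintro t1 ⟨z1, h1⟩ t2 ⟨z2, h2⟩ a b ha hb hab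
    refine ⟨a * z1 + b * z2, ?_⟩
    have h := hKconv h1 h2 ha hb hab
    rw [frame_comb u w e0 a b t1 z1 t2 z2 hab] at h
    simpa [smul_eq_mul] using h
  have hJIcc : ∀ t : ℝ, t ∈ J ↔ t ∈ Icc (sInf J) (sSup J) := by
    intro t
    constructor
    · intro ht
      exact ⟨csInf_le hJbb ht, le_csSup hJba ht⟩
    · intro ht
      exact hJconv.ordConnected.out haJ hbJ ht
  -- the fibres
  let F : ℝ → Set ℝ := fun t => {z | e0 + t • w + z • u ∈ K}
  have hFclosed : ∀ t, IsClosed (F t) := by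
    intro t
    have hcont : Continuous fun z : ℝ => e0 + t • w + z • u := by fun_prop
    exact hKcomp.isClosed.preimage hcont
  have hFba : ∀ t, BddAbove (F t) := fun t => ⟨M, fun z hz => (abs_le.mp (hzb t z hz)).2⟩
  have hFbb : ∀ t, BddBelow (F t) := fun t => ⟨-M, fun z hz => (abs_le.mp (hzb t z hz)).1⟩
  have hFne : ∀ t, t ∈ J → (F t).Nonempty := fun t ⟨z, hz⟩ => ⟨z, hz⟩
  have hsup : ∀ t, t ∈ J → e0 + t • w + (sSup (F t)) • u ∈ K := fun t ht =>
    (hFclosed t).csSup_mem (hFne t ht) (hFba t)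
  have hinf : ∀ t, t ∈ J → e0 + t • w + (sInf (F t)) • u ∈ K := fun t ht =>
    (hFclosed t).csInf_mem (hFne t ht) (hFbb t)
  have hFconv : ∀ t, Convex ℝ (F t) := by
    intro t z1 h1 z2 h2 a b ha hb hab
    have h := hKconv h1 h2 ha hb hab
    rw [frame_comb u w e0 a b t z1 t z2 hab] at h
    have ht : a * t + b * t = t := by rw [← add_mul, hab, one_mul]
    rw [ht] at h
    simp only [smul_eq_mul]
    exact h
  refine ⟨-sInf J, sSup J, fun t => sSup (F t), fun t => sInf (F t), ?_, ?_, ?_, ?_, ?_, ?_⟩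
  · have := csInf_le hJbb h0J
    linarith
  · exact le_csSup hJba h0J
  · intro t z
    rw [neg_neg]
    constructor
    · intro h
      have ht : t ∈ J := ⟨z, h⟩
      exact ⟨(hJIcc t).mp ht, csInf_le (hFbb t) h, le_csSup (hFba t) h⟩
    · rintro ⟨ht, h1, h2⟩
      have htJ : t ∈ J := (hJIcc t).mpr ht
      exact (hFconv t).ordConnected.out (hinf t htJ) (hsup t htJ) ⟨h1, h2⟩
  · rw [neg_neg]
    refine ⟨convex_Icc _ _, ?_⟩
    intro t1 ht1 t2 ht2 a b ha hb hab
    have h1 := hsup t1 ((hJIcc t1).mpr ht1)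
    have h2 := hsup t2 ((hJIcc t2).mpr ht2)
    have h := hKconv h1 h2 ha hb hab
    rw [frame_comb u w e0 a b t1 _ t2 _ hab] at h
    simp only [smul_eq_mul]
    exact le_csSup (hFba _) h
  · rw [neg_neg]
    refine ⟨convex_Icc _ _, ?_⟩
    intro t1 ht1 t2 ht2 a b ha hb hab
    have h1 := hinf t1 ((hJIcc t1).mpr ht1)
    have h2 := hinf t2 ((hJIcc t2).mpr ht2)
    have h := hKconv h1 h2 ha hb hab
    rw [frame_comb u w e0 a b t1 _ t2 _ hab] at h
    simp only [smul_eq_mul]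
    exact csInf_le (hFbb _) h
  · intro t ht
    rw [neg_neg] at ht
    exact csInf_le (hFbb t) (hsup t ((hJIcc t).mpr ht))

end Vale.Agent.H24.P243N
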