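import Mathlib

/-!
# An affine normalisation of convex bodies of Euclidean 3-space

Every compact convex set `K` with nonempty interior in `EuclideanSpace ℝ (Fin 3)` has an image
under an invertible affine map `x ↦ T x + b` which contains the closed ball of radius `1/5` about
the point `c0 = (1/5, 1/5, 1/5)` and is contained in the closed ball of radius `21/10` about `c0`.

The proof takes four points of `K` spanning a tetrahedron of maximal volume and maps them to
`0, e1, e2, e3`; by Cramer's rule and maximality the image of `K` lies in the cube `[-1, 1]^3`, and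
by convexity it contains the simplex with vertices `0, e1, e2, e3`.
-/

open Set Metric

namespace Vale.Agent.H24.P243N

/-- Euclidean 3-space. -/
abbrev E3 := EuclideanSpace ℝ (Fin 3)

/-- The edge matrix of four points: column `j` is `v (j+1) - v 0`. -/
def edgeMat (v : Fin 4 → E3) : Matrix (Fin 3) (Fin 3) ℝ :=
  Matrix.of fun i j => (v j.succ) i - (v 0) i

theorem edgeMat_apply (v : Fin 4 → E3) (i j : Fin 3) :
    edgeMat v i j = (v j.succ) i - (v 0) i := rfl

theorem continuous_edgeMat_det : Continuous fun v : Fin 4 → E3 => |(edgeMat v).det| := by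
  refine continuous_abs.comp (Continuous.matrix_det ?_)
  refine continuous_matrix fun i j => ?_
  simp only [edgeMat_apply]
  fun_prop

/-- Four points of a compact set spanning a tetrahedron of maximal volume. -/
theorem exists_max_tet (K : Set E3) (hKcomp : IsCompact K) (hKne : K.Nonempty) :
    ∃ v : Fin 4 → E3, (∀ i, v i ∈ K) ∧
      ∀ w : Fin 4 → E3, (∀ i, w i ∈ K) → |(edgeMat w).det| ≤ |(edgeMat v).det| := by
  have hS : IsCompact (Set.univ.pi fun _ : Fin 4 => K) := isCompact_univ_pi fun _ => hKcomp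
  obtain ⟨p, hp⟩ := hKne
  have hne : (Set.univ.pi fun _ : Fin 4 => K).Nonempty := ⟨fun _ => p, fun _ _ => hp⟩
  obtain ⟨v, hv, hmax⟩ := hS.exists_isMaxOn hne continuous_edgeMat_det.continuousOn
  refine ⟨v, fun i => hv i (Set.mem_univ i), fun w hw => ?_⟩
  exact hmax (fun i _ => hw i)

/-- A set with nonempty interior contains four points with nonzero edge determinant. -/
theorem exists_nondeg_tet (K : Set E3) (hKint : (interior K).Nonempty) :
    ∃ w : Fin 4 → E3, (∀ i, w i ∈ K) ∧ (edgeMat w).det ≠ 0 := by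
  obtain ⟨p, hp⟩ := hKint
  obtain ⟨ε, hε, hball⟩ := Metric.mem_nhds_iff.mp (mem_interior_iff_mem_nhds.mp hp)
  let w : Fin 4 → E3 := Fin.cons p fun j => p + (ε / 2) • EuclideanSpace.single j (1 : ℝ)
  have hw0 : w 0 = p := rfl
  have hws : ∀ j : Fin 3, w j.succ = p + (ε / 2) • EuclideanSpace.single j (1 : ℝ) := fun j => rfl
  refine ⟨w, ?_, ?_⟩
  · intro i
    refine Fin.cases ?_ (fun j => ?_) i
    · exact hball (Metric.mem_ball_self hε)
    · rw [hws]
      apply hball
      rw [Metric.mem_ball, dist_eq_norm]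
      have : p + (ε / 2) • EuclideanSpace.single j (1 : ℝ) - p
          = (ε / 2) • EuclideanSpace.single j (1 : ℝ) := by abel
      have h1 : ‖EuclideanSpace.single j (1 : ℝ)‖ = ‖(1 : ℝ)‖ :=
        PiLp.norm_single 2 (fun _ : Fin 3 => ℝ) j (1 : ℝ)
      rw [this, norm_smul, h1, norm_one, mul_one, Real.norm_eq_abs,
        abs_of_pos (by positivity)]
      linarith
  · have hM : edgeMat w = (ε / 2) • (1 : Matrix (Fin 3) (Fin 3) ℝ) := by
      ext i j
      rw [edgeMat_apply, hws, hw0]
      by_cases hij : i = j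
      · subst hij
        simp
      · simp [hij, Matrix.one_apply_ne hij]
    rw [hM, Matrix.det_smul, Matrix.det_one]
    simp
    positivity

/-- Replacing the vertex `j+1` of the tetrahedron by `x` replaces column `j` of the edge matrix. -/
theorem edgeMat_update (v : Fin 4 → E3) (j : Fin 3) (x : E3) :
    edgeMat (Function.update v j.succ x) = (edgeMat v).updateCol j (fun i => x i - (v 0) i) := by
  ext i j'
  have h0 : Function.update v j.succ x 0 = v 0 :=
    Function.update_of_ne (Fin.succ_ne_zero j).symm _ _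
  by_cases hj : j' = j
  · subst hj
    simp [edgeMat_apply, h0]
  · have hne : j'.succ ≠ j.succ := fun h => hj (Fin.succ_injective _ h)
    simp [edgeMat_apply, h0, hj, hne]

/-- Cramer's rule and maximality: the coordinates of `x - v 0` in the edge basis lie in `[-1,1]`. -/
theorem cramer_coord_le (K : Set E3) (v : Fin 4 → E3) (hv : ∀ i, v i ∈ K)
    (hmax : ∀ w : Fin 4 → E3, (∀ i, w i ∈ K) → |(edgeMat w).det| ≤ |(edgeMat v).det|)
    (hdet : (edgeMat v).det ≠ 0) (x : E3) (hx : x ∈ K) (j : Fin 3) :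
    |((edgeMat v).det)⁻¹ * (edgeMat v).cramer (fun i => x i - (v 0) i) j| ≤ 1 := by
  rw [Matrix.cramer_apply, ← edgeMat_update, abs_mul, abs_inv]
  have hpos : 0 < |(edgeMat v).det| := abs_pos.mpr hdet
  have hle : |(edgeMat (Function.update v j.succ x)).det| ≤ |(edgeMat v).det| := by
    apply hmax
    intro i
    by_cases hi : i = j.succ
    · subst hi
      simpa using hx
    · simpa [Function.update_of_ne hi] using hv i
  rw [inv_mul_le_iff₀ hpos]
  simpa using hle

/-- The linear automorphism of `Fin 3 → ℝ` inverse to multiplication by a matrix with nonzero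
determinant, given by Cramer's rule. -/
noncomputable def cramerEquiv (M : Matrix (Fin 3) (Fin 3) ℝ) (hM : M.det ≠ 0) :
    (Fin 3 → ℝ) ≃ₗ[ℝ] (Fin 3 → ℝ) where
  toFun b := (M.det)⁻¹ • M.cramer b
  map_add' b b' := by simp [map_add]
  map_smul' c b := by
    simp only [map_smul, RingHom.id_apply]
    rw [smul_comm]
  invFun y := M.mulVec y
  left_inv b := by
    show M.mulVec ((M.det)⁻¹ • M.cramer b) = b
    rw [Matrix.mulVec_smul, Matrix.mulVec_cramer, smul_smul, inv_mul_cancel₀ hM, one_smul]
  right_inv y := by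
    show (M.det)⁻¹ • M.cramer (M.mulVec y) = y
    rw [Matrix.cramer_eq_adjugate_mulVec, Matrix.mulVec_mulVec, Matrix.adjugate_mul,
      Matrix.smul_mulVec, Matrix.one_mulVec, smul_smul, inv_mul_cancel₀ hM, one_smul]

theorem cramerEquiv_apply (M : Matrix (Fin 3) (Fin 3) ℝ) (hM : M.det ≠ 0) (b : Fin 3 → ℝ) :
    cramerEquiv M hM b = (M.det)⁻¹ • M.cramer b := rfl

theorem cramerEquiv_mulVec (M : Matrix (Fin 3) (Fin 3) ℝ) (hM : M.det ≠ 0) (y : Fin 3 → ℝ) :
    cramerEquiv M hM (M.mulVec y) = y := (cramerEquiv M hM).right_inv y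

/-- The same automorphism on Euclidean 3-space. -/
noncomputable def cramerCLE (M : Matrix (Fin 3) (Fin 3) ℝ) (hM : M.det ≠ 0) : E3 ≃L[ℝ] E3 :=
  (EuclideanSpace.equiv (Fin 3) ℝ).trans
    ((cramerEquiv M hM).toContinuousLinearEquiv.trans (EuclideanSpace.equiv (Fin 3) ℝ).symm)

theorem cramerCLE_apply (M : Matrix (Fin 3) (Fin 3) ℝ) (hM : M.det ≠ 0) (x : E3) (i : Fin 3) :
    (cramerCLE M hM x) i = (M.det)⁻¹ * M.cramer (fun k => x k) i := rfl

/-- **Affine normalisation.** Every compact convex set of Euclidean 3-space with nonempty interior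
has an image under an invertible affine map `x ↦ T x + b` lying between the closed balls of radii
`1/5` and `21/10` about one point `c0`. -/
theorem exists_affine_sandwich (K : Set E3) (hKconv : Convex ℝ K) (hKcomp : IsCompact K)
    (hKint : (interior K).Nonempty) :
    ∃ (T : E3 ≃L[ℝ] E3) (b c0 : E3),
      closedBall c0 (1 / 5) ⊆ (fun x => T x + b) '' K ∧
        (fun x => T x + b) '' K ⊆ closedBall c0 (21 / 10) := by
  have hKne : K.Nonempty := hKint.mono interior_subset
  obtain ⟨v, hv, hmax⟩ := exists_max_tet K hKcomp hKne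
  obtain ⟨w, hw, hwdet⟩ := exists_nondeg_tet K hKint
  have hdet : (edgeMat v).det ≠ 0 := by
    intro h0
    have := hmax w hw
    rw [h0, abs_zero] at this
    exact hwdet (abs_eq_zero.mp (le_antisymm this (abs_nonneg _)))
  set M := edgeMat v with hMdef
  set T := cramerCLE M hdet with hTdef
  let c0 : E3 := (EuclideanSpace.equiv (Fin 3) ℝ).symm fun _ => (1 / 5 : ℝ)
  have hc0 : ∀ i, c0 i = 1 / 5 := fun i => rfl
  have hTb : ∀ x : E3, T x + -T (v 0) = T (x - v 0) := fun x => by
    rw [map_sub, sub_eq_add_neg]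
  have hcoord : ∀ x : E3, ∀ i, (T (x - v 0)) i
      = (M.det)⁻¹ * M.cramer (fun k => x k - (v 0) k) i := fun x i => rfl
  refine ⟨T, -T (v 0), c0, ?_, ?_⟩
  · -- the ball of radius 1/5 lies in the simplex, which lies in the image
    intro z hz
    rw [mem_closedBall, EuclideanSpace.dist_eq, Real.sqrt_le_iff] at hz
    have hz2 : (z 0 - 1 / 5) ^ 2 + (z 1 - 1 / 5) ^ 2 + (z 2 - 1 / 5) ^ 2 ≤ (1 / 5 : ℝ) ^ 2 := by
      have := hz.2
      simpa [Fin.sum_univ_three, Real.dist_eq, hc0] using this
    have h0 : 0 ≤ z 0 := by nlinarith [sq_nonneg (z 1 - 1 / 5), sq_nonneg (z 2 - 1 / 5)]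
    have h1 : 0 ≤ z 1 := by nlinarith [sq_nonneg (z 0 - 1 / 5), sq_nonneg (z 2 - 1 / 5)]
    have h2 : 0 ≤ z 2 := by nlinarith [sq_nonneg (z 0 - 1 / 5), sq_nonneg (z 1 - 1 / 5)]
    have hsum : z 0 + z 1 + z 2 ≤ 1 := by
      nlinarith [sq_nonneg (z 0 - z 1), sq_nonneg (z 0 - z 2), sq_nonneg (z 1 - z 2),
        sq_nonneg (z 0 + z 1 + z 2 - 3 / 5 - 2 / 5)]
    let wt : Fin 4 → ℝ := Fin.cons (1 - (z 0 + z 1 + z 2)) fun j => z j
    have hwt0 : wt 0 = 1 - (z 0 + z 1 + z 2) := rfl
    have hwts : ∀ j : Fin 3, wt j.succ = z j := fun j => rfl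
    have hx : ∑ i, wt i • v i ∈ K := by
      refine hKconv.sum_mem (fun i _ => ?_) ?_ (fun i _ => hv i)
      · refine Fin.cases ?_ (fun j => ?_) i
        · rw [hwt0]; linarith
        · rw [hwts]; fin_cases j <;> assumption
      · rw [Fin.sum_univ_succ, hwt0]
        simp only [hwts, Fin.sum_univ_three]
        ring
    refine ⟨∑ i, wt i • v i, hx, ?_⟩
    show T (∑ i, wt i • v i) + -T (v 0) = z
    rw [hTb]
    ext i
    rw [hcoord]
    have hfun : (fun k => (∑ i, wt i • v i) k - (v 0) k) = M.mulVec fun j => z j := by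
      funext k
      rw [Fin.sum_univ_succ, hwt0]
      simp only [hwts, Fin.sum_univ_three, Matrix.mulVec, dotProduct, hMdef, edgeMat_apply,
        PiLp.add_apply, PiLp.smul_apply, smul_eq_mul]
      ring
    rw [hfun]
    have := cramerEquiv_mulVec M hdet fun j => z j
    have h3 := congrFun this i
    rw [cramerEquiv_apply] at h3
    simpa using h3
  · -- the image lies in the cube, which lies in the ball of radius 21/10
    rintro y ⟨x, hx, rfl⟩
    show T x + -T (v 0) ∈ closedBall c0 (21 / 10)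
    rw [hTb]
    have hle : ∀ i, |(T (x - v 0)) i| ≤ 1 := fun i => by
      rw [hcoord]
      exact cramer_coord_le K v hv hmax hdet x hx i
    rw [mem_closedBall, EuclideanSpace.dist_eq, Real.sqrt_le_iff]
    refine ⟨by norm_num, ?_⟩
    have hb : ∀ i, ((T (x - v 0)) i - 1 / 5) ^ 2 ≤ (6 / 5 : ℝ) ^ 2 := fun i => by
      have := abs_le.mp (hle i)
      nlinarith [this.1, this.2]
    have h0 := hb 0
    have h1 := hb 1
    have h2 := hb 2
    simp only [Fin.sum_univ_three, Real.dist_eq, hc0, sq_abs]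
    nlinarith

end Vale.Agent.H24.P243N
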