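import Mathlib
import Vale.Agent.H7.GenK.Planar
import Vale.Agent.H24.P243N.PlaneSection

/-!
P243, general convex bodies (helper15's proof, thread P243 #2414/#2415), LEMMA S:
STEP 2 (plane section), the PLANAR LEMMA (helper7) and STEP 3 glued together; STEP 3 (two upper
support lines in the plane give two supporting half-spaces with an angle) enters as the
hypothesis `hS3`, so that this file does not depend on its proof.
In pure membership form: a chord `[e0, e0 + L u]` of `K` and a unit `w ⊥ u` such that the chords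
of `K` over the ray `t ↦ e0 + t w` satisfy the two bounds (H1), (H2) produce an end point of the
chord lying in two caps of height `eta` whose unit normals make an angle bounded from below.
-/

namespace Vale.Agent.H24.P243N

open Set Metric

variable {E : Type*} [NormedAddCommGroup E] [InnerProductSpace ℝ E]

/-- the constant chase of LEMMA S, STEP 3. -/
theorem sharp_const (ρ R L η r D s1 s2 : ℝ) (hρ : 0 < ρ) (hρR : ρ ≤ R) (hηL : η ≤ L / 2)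
    (hη : 0 < η) (hLlow : 8 * ρ ^ 3 / (3 * R ^ 2) ≤ L) (hL2R : L ≤ 2 * R) (hrlow : ρ / 2 ≤ r)
    (hr2R : r ≤ 2 * R) (hD : D = (L - η / 2) / (2 * r)) (hs12 : |s1 - s2| = D)
    (hs1 : |s1| ≤ 2 * R / r) (hs2 : |s2| ≤ 2 * R / r + D) :
    ρ ^ 7 / (1680 * R ^ 7)
      ≤ |s1 - s2| * (ρ / (4 * R * (1 + |s1|))) * (ρ / (4 * R * (1 + |s2|))) := by
  have hR : 0 < R := lt_of_lt_of_le hρ hρR
  have hr : 0 < r := by linarith
  have hq : 1 ≤ R / ρ := by rw [le_div_iff₀ hρ]; linarith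
  have hq0 : 0 ≤ R / ρ := by positivity
  have h1 : 2 * R / r ≤ 4 * (R / ρ) := by
    rw [div_le_iff₀ hr]
    have h2 : 4 * (R / ρ) * (ρ / 2) = 2 * R := by field_simp; ring
    have h3 : (0:ℝ) ≤ 4 * (R / ρ) := by positivity
    nlinarith [mul_le_mul_of_nonneg_left hrlow h3]
  have hDle : D ≤ 2 * (R / ρ) := by
    rw [hD, div_le_iff₀ (by positivity)]
    have h2 : 2 * (R / ρ) * (2 * (ρ / 2)) = 2 * R := by field_simp
    have h3 : (0:ℝ) ≤ 2 * (R / ρ) := by positivity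
    nlinarith [mul_le_mul_of_nonneg_left hrlow h3]
  have hDge : ρ ^ 3 / (2 * R ^ 3) ≤ D := by
    rw [hD, le_div_iff₀ (by positivity)]
    have e1 : ρ ^ 3 / (2 * R ^ 3) * (2 * r) ≤ ρ ^ 3 / (2 * R ^ 3) * (4 * R) :=
      mul_le_mul_of_nonneg_left (by linarith) (by positivity)
    have e2 : ρ ^ 3 / (2 * R ^ 3) * (4 * R) = 2 * ρ ^ 3 / R ^ 2 := by field_simp; ring
    have e3 : 8 * ρ ^ 3 / (3 * R ^ 2) = (4 / 3) * (2 * ρ ^ 3 / R ^ 2) := by field_simp; ring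
    linarith
  have hA1 : 1 + |s1| ≤ 5 * (R / ρ) := by linarith
  have hA2 : 1 + |s2| ≤ 7 * (R / ρ) := by linarith
  have f1 : ρ ^ 2 / (20 * R ^ 2) ≤ ρ / (4 * R * (1 + |s1|)) := by
    rw [div_le_div_iff₀ (by positivity) (by positivity)]
    have e : ρ ^ 2 * (4 * R * (5 * (R / ρ))) = ρ * (20 * R ^ 2) := by field_simp; ring
    nlinarith [mul_le_mul_of_nonneg_left hA1 (by positivity : (0:ℝ) ≤ ρ ^ 2 * (4 * R))]
  have f2 : ρ ^ 2 / (28 * R ^ 2) ≤ ρ / (4 * R * (1 + |s2|)) := by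
    rw [div_le_div_iff₀ (by positivity) (by positivity)]
    have e : ρ ^ 2 * (4 * R * (7 * (R / ρ))) = ρ * (28 * R ^ 2) := by field_simp; ring
    nlinarith [mul_le_mul_of_nonneg_left hA2 (by positivity : (0:ℝ) ≤ ρ ^ 2 * (4 * R))]
  have e0 : ρ ^ 3 / (2 * R ^ 3) * (ρ ^ 2 / (20 * R ^ 2)) * (ρ ^ 2 / (28 * R ^ 2))
      = ρ ^ 7 / (1120 * R ^ 7) := by field_simp; ring
  calc ρ ^ 7 / (1680 * R ^ 7) ≤ ρ ^ 7 / (1120 * R ^ 7) := by
        apply div_le_div_of_nonneg_left (by positivity) (by positivity)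
        nlinarith [pow_pos hR 7]
    _ = ρ ^ 3 / (2 * R ^ 3) * (ρ ^ 2 / (20 * R ^ 2)) * (ρ ^ 2 / (28 * R ^ 2)) := e0.symm
    _ ≤ |s1 - s2| * (ρ / (4 * R * (1 + |s1|))) * (ρ / (4 * R * (1 + |s2|))) := by
        rw [hs12]
        exact mul_le_mul (mul_le_mul hDge f1 (by positivity) (by linarith [show (0:ℝ) ≤ ρ ^ 3 / (2 * R ^ 3) by positivity])) f2 (by positivity)
          (mul_nonneg (by linarith [show (0:ℝ) ≤ ρ ^ 3 / (2 * R ^ 3) by positivity]) (by positivity))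

/-- the constant chase of LEMMA S, STEP 3, with `ρ ≤ L` (constant `ρ⁵ / (3000 R⁵)`). -/
theorem sharp_const_rho (ρ R L η r D s1 s2 : ℝ) (hρ : 0 < ρ) (hρR : ρ ≤ R) (hηL : η ≤ L / 2)
    (hη : 0 < η) (hLlow : ρ ≤ L) (hrlow : ρ / 2 ≤ r)
    (hr2R : r ≤ 2 * R) (hD : D = (L - η / 2) / (2 * r)) (hs12 : |s1 - s2| = D)
    (hs1 : |s1| ≤ 2 * R / r) (hs2 : |s2| ≤ 2 * R / r + D) (hL2R : L ≤ 2 * R) :
    ρ ^ 5 / (3000 * R ^ 5)
      ≤ |s1 - s2| * (ρ / (4 * R * (1 + |s1|))) * (ρ / (4 * R * (1 + |s2|))) := by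
  have hR : 0 < R := lt_of_lt_of_le hρ hρR
  have hr : 0 < r := by linarith
  have hq : 1 ≤ R / ρ := by rw [le_div_iff₀ hρ]; linarith
  have hq0 : 0 ≤ R / ρ := by positivity
  have h1 : 2 * R / r ≤ 4 * (R / ρ) := by
    rw [div_le_iff₀ hr]
    have h2 : 4 * (R / ρ) * (ρ / 2) = 2 * R := by field_simp; ring
    have h3 : (0:ℝ) ≤ 4 * (R / ρ) := by positivity
    nlinarith [mul_le_mul_of_nonneg_left hrlow h3]
  have hDle : D ≤ 2 * (R / ρ) := by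
    rw [hD, div_le_iff₀ (by positivity)]
    have h2 : 2 * (R / ρ) * (2 * (ρ / 2)) = 2 * R := by field_simp
    have h3 : (0:ℝ) ≤ 2 * (R / ρ) := by positivity
    nlinarith [mul_le_mul_of_nonneg_left hrlow h3]
  have hDge : 3 * ρ / (16 * R) ≤ D := by
    rw [hD, le_div_iff₀ (by positivity)]
    have e1 : 3 * ρ / (16 * R) * (2 * r) ≤ 3 * ρ / (16 * R) * (4 * R) :=
      mul_le_mul_of_nonneg_left (by linarith) (by positivity)
    have e2 : 3 * ρ / (16 * R) * (4 * R) = 3 * ρ / 4 := by field_simp; ring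
    linarith
  have hA1 : 1 + |s1| ≤ 5 * (R / ρ) := by linarith
  have hA2 : 1 + |s2| ≤ 7 * (R / ρ) := by linarith
  have f1 : ρ ^ 2 / (20 * R ^ 2) ≤ ρ / (4 * R * (1 + |s1|)) := by
    rw [div_le_div_iff₀ (by positivity) (by positivity)]
    have e : ρ ^ 2 * (4 * R * (5 * (R / ρ))) = ρ * (20 * R ^ 2) := by field_simp; ring
    nlinarith [mul_le_mul_of_nonneg_left hA1 (by positivity : (0:ℝ) ≤ ρ ^ 2 * (4 * R))]
  have f2 : ρ ^ 2 / (28 * R ^ 2) ≤ ρ / (4 * R * (1 + |s2|)) := by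
    rw [div_le_div_iff₀ (by positivity) (by positivity)]
    have e : ρ ^ 2 * (4 * R * (7 * (R / ρ))) = ρ * (28 * R ^ 2) := by field_simp; ring
    nlinarith [mul_le_mul_of_nonneg_left hA2 (by positivity : (0:ℝ) ≤ ρ ^ 2 * (4 * R))]
  have e0 : 3 * ρ / (16 * R) * (ρ ^ 2 / (20 * R ^ 2)) * (ρ ^ 2 / (28 * R ^ 2))
      = 3 * ρ ^ 5 / (8960 * R ^ 5) := by field_simp; ring
  have hpos : (0:ℝ) ≤ 3 * ρ / (16 * R) := by positivity
  calc ρ ^ 5 / (3000 * R ^ 5) ≤ 3 * ρ ^ 5 / (8960 * R ^ 5) := by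
        rw [div_le_div_iff₀ (by positivity) (by positivity)]
        nlinarith [mul_pos (pow_pos hρ 5) (pow_pos hR 5)]
    _ = 3 * ρ / (16 * R) * (ρ ^ 2 / (20 * R ^ 2)) * (ρ ^ 2 / (28 * R ^ 2)) := e0.symm
    _ ≤ |s1 - s2| * (ρ / (4 * R * (1 + |s1|))) * (ρ / (4 * R * (1 + |s2|))) := by
        rw [hs12]
        exact mul_le_mul (mul_le_mul hDge f1 (by positivity) (by linarith)) f2 (by positivity)
          (mul_nonneg (by linarith) (by positivity))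

/-- LEMMA S, STEPS 2 and 3: a good ray gives a sharp end of the chord (STEP 3 as hypothesis,
the constant chase as hypothesis `hconst`). -/
theorem sharp_end_gen (K : Set E) (hKconv : Convex ℝ K) (hKcomp : IsCompact K)
    (c : E) (ρ R : ℝ) (hρ : 0 < ρ) (hball : closedBall c ρ ⊆ K) (hKR : K ⊆ closedBall c R)
    (u w e0 : E) (hu : ‖u‖ = 1) (hw : ‖w‖ = 1) (huw : inner ℝ u w = 0)
    (hS3 : ∀ (u' : E) (h sg1 sg2 : ℝ), ‖u'‖ = 1 → inner ℝ u' w = 0 →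
      ‖e0 + h • u' - c‖ ≤ 2 * R →
      ‖(c - e0) - inner ℝ (c - e0) w • w - inner ℝ (c - e0) u' • u'‖ ≤ ρ / 2 →
      (∀ t z : ℝ, e0 + t • w + z • u' ∈ K → z ≤ h + sg1 * t) →
      (∀ t z : ℝ, e0 + t • w + z • u' ∈ K → z ≤ h + sg2 * t) →
      ∃ ξ1 ξ2 : E, ‖ξ1‖ = 1 ∧ ‖ξ2‖ = 1 ∧ (∀ y ∈ K, inner ℝ ξ1 (y - (e0 + h • u')) ≤ 0) ∧
        (∀ y ∈ K, inner ℝ ξ2 (y - (e0 + h • u')) ≤ 0) ∧
        (|sg1 - sg2| * (ρ / (4 * R * (1 + |sg1|))) * (ρ / (4 * R * (1 + |sg2|)))) ^ 2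
          ≤ 1 - (inner ℝ ξ1 ξ2) ^ 2)
    (L η r : ℝ) (hη : 0 < η) (hηL : η ≤ L / 2)
    (hrlow : ρ / 2 ≤ r)
    (hchord : ∀ z : ℝ, e0 + z • u ∈ K ↔ 0 ≤ z ∧ z ≤ L)
    (hrK : ∃ z : ℝ, e0 + r • w + z • u ∈ K)
    (hrmax : ∀ t z : ℝ, e0 + t • w + z • u ∈ K → t ≤ r)
    (hplane : ‖(c - e0) - inner ℝ (c - e0) w • w - inner ℝ (c - e0) u • u‖ ≤ ρ / 2)
    (H1 : ∀ t ∈ Icc (0:ℝ) r, ∀ z1 z2 : ℝ, e0 + t • w + z1 • u ∈ K → e0 + t • w + z2 • u ∈ K →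
      z2 - z1 ≤ L * (1 - t / r) + η / 2)
    (H2 : ∀ t z1 z2 : ℝ, e0 + t • w + z1 • u ∈ K → e0 + t • w + z2 • u ∈ K →
      z2 - z1 ≤ L + η / 2)
    (s0 : ℝ)
    (hconst : ρ ≤ R → L ≤ 2 * R → r ≤ 2 * R → 0 ≤ s0 ∧ ∀ D s1 s2 : ℝ,
      D = (L - η / 2) / (2 * r) → |s1 - s2| = D → |s1| ≤ 2 * R / r → |s2| ≤ 2 * R / r + D →
      s0 ≤ |s1 - s2| * (ρ / (4 * R * (1 + |s1|))) * (ρ / (4 * R * (1 + |s2|)))) :
    ∃ e ξ1 ξ2 : E, (e = e0 ∨ e = e0 + L • u) ∧ ‖ξ1‖ = 1 ∧ ‖ξ2‖ = 1 ∧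
      (∀ y ∈ K, inner ℝ ξ1 (y - e) ≤ η) ∧ (∀ y ∈ K, inner ℝ ξ2 (y - e) ≤ η) ∧
      s0 ^ 2 ≤ 1 - (inner ℝ ξ1 ξ2) ^ 2 := by
  have hL : 0 < L := by linarith
  have hr : 0 < r := by linarith
  have he0 : e0 ∈ K := by
    have := (hchord 0).mpr ⟨le_refl 0, hL.le⟩
    simpa using this
  have heL : e0 + L • u ∈ K := (hchord L).mpr ⟨hL.le, le_refl L⟩
  have hρR : ρ ≤ R := by
    have h1 : c + ρ • u ∈ closedBall c ρ := by
      rw [mem_closedBall, dist_eq_norm]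
      simp [norm_smul, hu, abs_of_pos hρ]
    have h2 := hKR (hball h1)
    rw [mem_closedBall, dist_eq_norm] at h2
    simpa [norm_smul, hu, abs_of_pos hρ] using h2
  have hR : 0 < R := lt_of_lt_of_le hρ hρR
  have hdiam : ∀ y1 ∈ K, ∀ y2 ∈ K, ‖y1 - y2‖ ≤ 2 * R := by
    intro y1 h1 y2 h2
    have d1 := hKR h1
    have d2 := hKR h2
    rw [mem_closedBall] at d1 d2
    rw [← dist_eq_norm]
    calc dist y1 y2 ≤ dist y1 c + dist c y2 := dist_triangle _ _ _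
      _ ≤ R + R := by rw [dist_comm c y2]; exact add_le_add d1 d2
      _ = 2 * R := by ring
  have hL2R : L ≤ 2 * R := by
    have h := hdiam _ heL _ he0
    have e : e0 + L • u - e0 = L • u := by abel
    rw [e, norm_smul, hu, mul_one, Real.norm_eq_abs, abs_of_pos hL] at h
    exact h
  obtain ⟨r', r0, Zp, Zm, hr', -, hmem, hZp, hZm, hZle⟩ :=
    plane_section K hKconv hKcomp u w e0 hu hw huw he0
  have hr0r : r = r0 := by
    apply le_antisymm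
    · obtain ⟨z, hz⟩ := hrK
      exact ((hmem r z).mp hz).1.2
    · have h0 : e0 + (0:ℝ) • w + (0:ℝ) • u ∈ K := by simpa using he0
      have h00 := ((hmem 0 0).mp h0).1
      have h1 : r0 ∈ Icc (-r') r0 := ⟨by linarith [h00.1, h00.2], le_refl _⟩
      have h2 := (hmem r0 (Zp r0)).mpr ⟨h1, hZle r0 h1, le_refl _⟩
      exact hrmax _ _ h2
  subst hr0r
  have hJ0 : (0:ℝ) ∈ Icc (-r') r := ⟨by linarith, hr.le⟩
  have hJr : r ∈ Icc (-r') r := ⟨by linarith, le_refl r⟩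
  have hXp : ∀ t ∈ Icc (-r') r, e0 + t • w + Zp t • u ∈ K := fun t ht =>
    (hmem t (Zp t)).mpr ⟨ht, hZle t ht, le_refl _⟩
  have hXm : ∀ t ∈ Icc (-r') r, e0 + t • w + Zm t • u ∈ K := fun t ht =>
    (hmem t (Zm t)).mpr ⟨ht, le_refl _, hZle t ht⟩
  have hZm0 : Zm 0 = 0 := by
    have h1 : e0 + (0:ℝ) • w + (0:ℝ) • u ∈ K := by simpa using he0
    have h2 := ((hmem 0 0).mp h1).2.1
    have h3 := hXm 0 hJ0
    rw [zero_smul, add_zero] at h3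
    have h4 := ((hchord _).mp h3).1
    linarith
  have hZp0 : Zp 0 = L := by
    have h1 : e0 + (0:ℝ) • w + L • u ∈ K := by simpa using heL
    have h2 := ((hmem 0 L).mp h1).2.2
    have h3 := hXp 0 hJ0
    rw [zero_smul, add_zero] at h3
    have h4 := ((hchord _).mp h3).2
    linarith
  have H1' : ∀ t ∈ Icc (0:ℝ) r, Zp t - Zm t ≤ L * (1 - t / r) + η / 2 := by
    intro t ht
    have htJ : t ∈ Icc (-r') r := ⟨by linarith [ht.1], ht.2⟩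
    exact H1 t ht _ _ (hXm t htJ) (hXp t htJ)
  have H2' : ∀ t ∈ Icc (-r') r, Zp t - Zm t ≤ L + η / 2 := fun t ht =>
    H2 t _ _ (hXm t ht) (hXp t ht)
  have hpl := Vale.Agent.H7.GenK.planar_lemma r' r L η Zp Zm hr hr' hη (by linarith) hZp hZm
    (hZle r hJr) hZm0 hZp0 H1' H2'
  have hr2R : r ≤ 2 * R := by
    have h1 := hXp r hJr
    have h2 := abs_real_inner_le_norm (e0 + r • w + Zp r • u - e0) w
    rw [frame_inner_w u w e0 hw huw, hw, mul_one] at h2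
    have h3 := hdiam _ h1 _ he0
    have h4 := le_abs_self r
    linarith
  obtain ⟨D, hD⟩ : ∃ D : ℝ, D = (L - η / 2) / (2 * r) := ⟨_, rfl⟩
  have hDpos : 0 < D := by rw [hD]; apply div_pos <;> linarith
  rw [← hD] at hpl
  rcases hpl with hplus | hminus
  · -- the top has two support lines: the upper end is sharp
    obtain ⟨a, ha⟩ : ∃ a : ℝ, a = (Zp r - L) / r := ⟨_, rfl⟩
    rw [← ha] at hplus
    have habs : |a| ≤ 2 * R / r := by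
      have h1 := hXp r hJr
      have e : e0 + r • w + Zp r • u - (e0 + L • u) = (e0 + r • w + (Zp r - L) • u) - e0 := by
        rw [sub_smul]; abel
      have h2 := abs_real_inner_le_norm (e0 + r • w + (Zp r - L) • u - e0) u
      have h3 := hdiam _ h1 _ heL
      rw [e] at h3
      rw [frame_inner_u u w e0 hu huw, hu, mul_one] at h2
      rw [ha, abs_div, abs_of_pos hr]
      exact div_le_div_of_nonneg_right (h2.trans h3) hr.le
    have h1 : ∀ t z : ℝ, e0 + t • w + z • u ∈ K → z ≤ (L + η) + a * t := by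
      intro t z hz
      obtain ⟨ht, -, hz2⟩ := (hmem t z).mp hz
      have := (hplus t ht).1
      linarith
    have h2 : ∀ t z : ℝ, e0 + t • w + z • u ∈ K → z ≤ (L + η) + (a + D) * t := by
      intro t z hz
      obtain ⟨ht, -, hz2⟩ := (hmem t z).mp hz
      have := (hplus t ht).2
      linarith
    have hdist : ‖e0 + (L + η) • u - c‖ ≤ 2 * R := by
      have e : e0 + (L + η) • u - c = (e0 + L • u - c) + η • u := by rw [add_smul]; abel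
      have d1 := hKR heL
      rw [mem_closedBall, dist_eq_norm] at d1
      rw [e]
      calc ‖(e0 + L • u - c) + η • u‖ ≤ ‖e0 + L • u - c‖ + ‖η • u‖ := norm_add_le _ _
        _ ≤ R + η := by
            rw [norm_smul, hu, mul_one, Real.norm_eq_abs, abs_of_pos hη]; linarith
        _ ≤ 2 * R := by linarith
    obtain ⟨ξ1, ξ2, hn1, hn2, hc1, hc2, hs⟩ :=
      hS3 u (L + η) a (a + D) hu huw hdist hplane h1 h2
    have hcap : ∀ ξ : E, ‖ξ‖ = 1 → (∀ y ∈ K, inner ℝ ξ (y - (e0 + (L + η) • u)) ≤ 0) →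
        ∀ y ∈ K, inner ℝ ξ (y - (e0 + L • u)) ≤ η := by
      intro ξ hn hc y hy
      have e : y - (e0 + L • u) = (y - (e0 + (L + η) • u)) + η • u := by rw [add_smul]; abel
      rw [e, inner_add_right, real_inner_smul_right]
      have h3 := hc y hy
      have h4 := abs_real_inner_le_norm ξ u
      rw [hn, hu, mul_one] at h4
      have h5 := le_abs_self (inner ℝ ξ u)
      nlinarith
    refine ⟨e0 + L • u, ξ1, ξ2, Or.inr rfl, hn1, hn2, hcap ξ1 hn1 hc1, hcap ξ2 hn2 hc2, ?_⟩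
    have hconst' := (hconst hρR hL2R hr2R).2 D a (a + D) hD
      (by rw [sub_add_cancel_left, abs_neg, abs_of_pos hDpos]) habs
      ((abs_add_le a D).trans (by rw [abs_of_pos hDpos]; linarith))
    exact (pow_le_pow_left₀ (hconst hρR hL2R hr2R).1 hconst' 2).trans hs
  · -- the bottom has two support lines: the lower end is sharp
    obtain ⟨cc, hcc⟩ : ∃ cc : ℝ, cc = Zm r / r := ⟨_, rfl⟩
    rw [← hcc] at hminus
    have habs : |cc| ≤ 2 * R / r := by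
      have h1 := hXm r hJr
      have h2 := abs_real_inner_le_norm (e0 + r • w + Zm r • u - e0) u
      rw [frame_inner_u u w e0 hu huw, hu, mul_one] at h2
      have h3 := hdiam _ h1 _ he0
      rw [hcc, abs_div, abs_of_pos hr]
      exact div_le_div_of_nonneg_right (h2.trans h3) hr.le
    have hu' : ‖-u‖ = 1 := by rw [norm_neg]; exact hu
    have huw' : inner ℝ (-u) w = 0 := by rw [inner_neg_left, huw, neg_zero]
    have h1 : ∀ t z : ℝ, e0 + t • w + z • (-u) ∈ K → z ≤ η + (-cc) * t := by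
      intro t z hz
      have e : e0 + t • w + z • (-u) = e0 + t • w + (-z) • u := by rw [smul_neg, neg_smul]
      rw [e] at hz
      obtain ⟨ht, hz1, -⟩ := (hmem t (-z)).mp hz
      have := (hminus t ht).1
      linarith
    have h2 : ∀ t z : ℝ, e0 + t • w + z • (-u) ∈ K → z ≤ η + (-cc + D) * t := by
      intro t z hz
      have e : e0 + t • w + z • (-u) = e0 + t • w + (-z) • u := by rw [smul_neg, neg_smul]
      rw [e] at hz
      obtain ⟨ht, hz1, -⟩ := (hmem t (-z)).mp hz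
      have h3 := (hminus t ht).2
      have e2 : (cc - D) * t = -((-cc + D) * t) := by ring
      rw [e2] at h3
      linarith
    have hdist : ‖e0 + η • (-u) - c‖ ≤ 2 * R := by
      have e : e0 + η • (-u) - c = (e0 - c) - η • u := by rw [smul_neg]; abel
      have d1 := hKR he0
      rw [mem_closedBall, dist_eq_norm] at d1
      rw [e]
      calc ‖(e0 - c) - η • u‖ ≤ ‖e0 - c‖ + ‖η • u‖ := norm_sub_le _ _
        _ ≤ R + η := by
            rw [norm_smul, hu, mul_one, Real.norm_eq_abs, abs_of_pos hη]; linarith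
        _ ≤ 2 * R := by linarith
    have hplane' : ‖(c - e0) - inner ℝ (c - e0) w • w - inner ℝ (c - e0) (-u) • (-u)‖
        ≤ ρ / 2 := by
      rw [inner_neg_right, neg_smul_neg]; exact hplane
    obtain ⟨ξ1, ξ2, hn1, hn2, hc1, hc2, hs⟩ :=
      hS3 (-u) η (-cc) (-cc + D) hu' huw' hdist hplane' h1 h2
    have hcap : ∀ ξ : E, ‖ξ‖ = 1 → (∀ y ∈ K, inner ℝ ξ (y - (e0 + η • (-u))) ≤ 0) →
        ∀ y ∈ K, inner ℝ ξ (y - e0) ≤ η := by
      intro ξ hn hc y hy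
      have e : y - e0 = (y - (e0 + η • (-u))) + η • (-u) := by abel
      rw [e, inner_add_right, real_inner_smul_right, inner_neg_right]
      have h3 := hc y hy
      have h4 := abs_real_inner_le_norm ξ u
      rw [hn, hu, mul_one] at h4
      have h5 := neg_abs_le (inner ℝ ξ u)
      nlinarith
    refine ⟨e0, ξ1, ξ2, Or.inl rfl, hn1, hn2, hcap ξ1 hn1 hc1, hcap ξ2 hn2 hc2, ?_⟩
    have hconst' := (hconst hρR hL2R hr2R).2 D (-cc) (-cc + D) hD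
      (by rw [sub_add_cancel_left, abs_neg, abs_of_pos hDpos]) (by rw [abs_neg]; exact habs)
      ((abs_add_le (-cc) D).trans (by rw [abs_of_pos hDpos, abs_neg]; linarith))
    exact (pow_le_pow_left₀ (hconst hρR hL2R hr2R).1 hconst' 2).trans hs

/-- LEMMA S, STEPS 2 and 3 (STEP 3 as hypothesis), constant `ρ⁷ / (1680 R⁷)` from
`8 ρ³ / (3 R²) ≤ L`. -/
theorem sharp_end_core (K : Set E) (hKconv : Convex ℝ K) (hKcomp : IsCompact K)
    (c : E) (ρ R : ℝ) (hρ : 0 < ρ) (hball : closedBall c ρ ⊆ K) (hKR : K ⊆ closedBall c R)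
    (u w e0 : E) (hu : ‖u‖ = 1) (hw : ‖w‖ = 1) (huw : inner ℝ u w = 0)
    (hS3 : ∀ (u' : E) (h sg1 sg2 : ℝ), ‖u'‖ = 1 → inner ℝ u' w = 0 →
      ‖e0 + h • u' - c‖ ≤ 2 * R →
      ‖(c - e0) - inner ℝ (c - e0) w • w - inner ℝ (c - e0) u' • u'‖ ≤ ρ / 2 →
      (∀ t z : ℝ, e0 + t • w + z • u' ∈ K → z ≤ h + sg1 * t) →
      (∀ t z : ℝ, e0 + t • w + z • u' ∈ K → z ≤ h + sg2 * t) →
      ∃ ξ1 ξ2 : E, ‖ξ1‖ = 1 ∧ ‖ξ2‖ = 1 ∧ (∀ y ∈ K, inner ℝ ξ1 (y - (e0 + h • u')) ≤ 0) ∧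
        (∀ y ∈ K, inner ℝ ξ2 (y - (e0 + h • u')) ≤ 0) ∧
        (|sg1 - sg2| * (ρ / (4 * R * (1 + |sg1|))) * (ρ / (4 * R * (1 + |sg2|)))) ^ 2
          ≤ 1 - (inner ℝ ξ1 ξ2) ^ 2)
    (L η r : ℝ) (hη : 0 < η) (hηL : η ≤ L / 2) (hLlow : 8 * ρ ^ 3 / (3 * R ^ 2) ≤ L)
    (hrlow : ρ / 2 ≤ r)
    (hchord : ∀ z : ℝ, e0 + z • u ∈ K ↔ 0 ≤ z ∧ z ≤ L)
    (hrK : ∃ z : ℝ, e0 + r • w + z • u ∈ K)
    (hrmax : ∀ t z : ℝ, e0 + t • w + z • u ∈ K → t ≤ r)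
    (hplane : ‖(c - e0) - inner ℝ (c - e0) w • w - inner ℝ (c - e0) u • u‖ ≤ ρ / 2)
    (H1 : ∀ t ∈ Icc (0:ℝ) r, ∀ z1 z2 : ℝ, e0 + t • w + z1 • u ∈ K → e0 + t • w + z2 • u ∈ K →
      z2 - z1 ≤ L * (1 - t / r) + η / 2)
    (H2 : ∀ t z1 z2 : ℝ, e0 + t • w + z1 • u ∈ K → e0 + t • w + z2 • u ∈ K →
      z2 - z1 ≤ L + η / 2) :
    ∃ e ξ1 ξ2 : E, (e = e0 ∨ e = e0 + L • u) ∧ ‖ξ1‖ = 1 ∧ ‖ξ2‖ = 1 ∧
      (∀ y ∈ K, inner ℝ ξ1 (y - e) ≤ η) ∧ (∀ y ∈ K, inner ℝ ξ2 (y - e) ≤ η) ∧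
      (ρ ^ 7 / (1680 * R ^ 7)) ^ 2 ≤ 1 - (inner ℝ ξ1 ξ2) ^ 2 :=
  sharp_end_gen K hKconv hKcomp c ρ R hρ hball hKR u w e0 hu hw huw hS3 L η r hη hηL hrlow
    hchord hrK hrmax hplane H1 H2 (ρ ^ 7 / (1680 * R ^ 7))
    (fun hρR hL2R hr2R =>
      ⟨by have hR : 0 < R := lt_of_lt_of_le hρ hρR
          positivity,
        fun D s1 s2 hD h12 h1 h2 =>
          sharp_const ρ R L η r D s1 s2 hρ hρR hηL hη hLlow hL2R hrlow hr2R hD h12 h1 h2⟩)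

/-- LEMMA S, STEPS 2 and 3 (STEP 3 as hypothesis), constant `ρ⁵ / (3000 R⁵)` from `ρ ≤ L`. -/
theorem sharp_end_core_rho (K : Set E) (hKconv : Convex ℝ K) (hKcomp : IsCompact K)
    (c : E) (ρ R : ℝ) (hρ : 0 < ρ) (hball : closedBall c ρ ⊆ K) (hKR : K ⊆ closedBall c R)
    (u w e0 : E) (hu : ‖u‖ = 1) (hw : ‖w‖ = 1) (huw : inner ℝ u w = 0)
    (hS3 : ∀ (u' : E) (h sg1 sg2 : ℝ), ‖u'‖ = 1 → inner ℝ u' w = 0 →
      ‖e0 + h • u' - c‖ ≤ 2 * R →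
      ‖(c - e0) - inner ℝ (c - e0) w • w - inner ℝ (c - e0) u' • u'‖ ≤ ρ / 2 →
      (∀ t z : ℝ, e0 + t • w + z • u' ∈ K → z ≤ h + sg1 * t) →
      (∀ t z : ℝ, e0 + t • w + z • u' ∈ K → z ≤ h + sg2 * t) →
      ∃ ξ1 ξ2 : E, ‖ξ1‖ = 1 ∧ ‖ξ2‖ = 1 ∧ (∀ y ∈ K, inner ℝ ξ1 (y - (e0 + h • u')) ≤ 0) ∧
        (∀ y ∈ K, inner ℝ ξ2 (y - (e0 + h • u')) ≤ 0) ∧
        (|sg1 - sg2| * (ρ / (4 * R * (1 + |sg1|))) * (ρ / (4 * R * (1 + |sg2|)))) ^ 2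
          ≤ 1 - (inner ℝ ξ1 ξ2) ^ 2)
    (L η r : ℝ) (hη : 0 < η) (hηL : η ≤ L / 2) (hLlow : ρ ≤ L)
    (hrlow : ρ / 2 ≤ r)
    (hchord : ∀ z : ℝ, e0 + z • u ∈ K ↔ 0 ≤ z ∧ z ≤ L)
    (hrK : ∃ z : ℝ, e0 + r • w + z • u ∈ K)
    (hrmax : ∀ t z : ℝ, e0 + t • w + z • u ∈ K → t ≤ r)
    (hplane : ‖(c - e0) - inner ℝ (c - e0) w • w - inner ℝ (c - e0) u • u‖ ≤ ρ / 2)
    (H1 : ∀ t ∈ Icc (0:ℝ) r, ∀ z1 z2 : ℝ, e0 + t • w + z1 • u ∈ K → e0 + t • w + z2 • u ∈ K →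
      z2 - z1 ≤ L * (1 - t / r) + η / 2)
    (H2 : ∀ t z1 z2 : ℝ, e0 + t • w + z1 • u ∈ K → e0 + t • w + z2 • u ∈ K →
      z2 - z1 ≤ L + η / 2) :
    ∃ e ξ1 ξ2 : E, (e = e0 ∨ e = e0 + L • u) ∧ ‖ξ1‖ = 1 ∧ ‖ξ2‖ = 1 ∧
      (∀ y ∈ K, inner ℝ ξ1 (y - e) ≤ η) ∧ (∀ y ∈ K, inner ℝ ξ2 (y - e) ≤ η) ∧
      (ρ ^ 5 / (3000 * R ^ 5)) ^ 2 ≤ 1 - (inner ℝ ξ1 ξ2) ^ 2 :=
  sharp_end_gen K hKconv hKcomp c ρ R hρ hball hKR u w e0 hu hw huw hS3 L η r hη hηL hrlow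
    hchord hrK hrmax hplane H1 H2 (ρ ^ 5 / (3000 * R ^ 5))
    (fun hρR hL2R hr2R =>
      ⟨by have hR : 0 < R := lt_of_lt_of_le hρ hρR
          positivity,
        fun D s1 s2 hD h12 h1 h2 =>
          sharp_const_rho ρ R L η r D s1 s2 hρ hρR hηL hη hLlow hrlow hr2R hD h12 h1 h2 hL2R⟩)

end Vale.Agent.H24.P243N
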