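import Mathlib
import Vale.Agent.H93.GenK.Step3
import Vale.Agent.H24.P243N.SharpEndCore

/-!
P243, general convex bodies (helper15's proof, thread P243 #2414/#2415), LEMMA S:
STEP 2 (plane section), the PLANAR LEMMA (helper7) and STEP 3 (helper93) glued together.
In pure membership form: a chord `[e0, e0 + L u]` of `K` and a unit `w ⊥ u` such that the chords
of `K` over the ray `t ↦ e0 + t w` satisfy the two bounds (H1), (H2) produce an end point of the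
chord lying in two caps of height `eta` whose unit normals make an angle bounded from below.
-/

namespace Vale.Agent.H24.P243N

open Set Metric

variable {E : Type*} [NormedAddCommGroup E] [InnerProductSpace ℝ E] [CompleteSpace E]

/-- LEMMA S, STEPS 2 and 3: a good ray gives a sharp end of the chord. -/
theorem sharp_end_of_good_ray (K : Set E) (hKconv : Convex ℝ K) (hKcomp : IsCompact K)
    (c : E) (ρ R : ℝ) (hρ : 0 < ρ) (hball : closedBall c ρ ⊆ K) (hKR : K ⊆ closedBall c R)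
    (u w e0 : E) (hu : ‖u‖ = 1) (hw : ‖w‖ = 1) (huw : inner ℝ u w = 0)
    (L η r : ℝ) (hη : 0 < η) (hηL : η ≤ L / 2) (hLlow : 8 * ρ ^ 3 / (3 * R ^ 2) ≤ L)
    (hrlow : ρ / 2 ≤ r)
    (hchord : ∀ z : ℝ, e0 + z • u ∈ K ↔ 0 ≤ z ∧ z ≤ L)
    (hrK : ∃ z : ℝ, e0 + r • w + z • u ∈ K)
    (hrmax : ∀ t z : ℝ, e0 + t • w + z • u ∈ K → t ≤ r)
    (hplane : ‖(c - e0) - inner ℝ (c - e0) w • w - inner ℝ (c - e0) u • u‖ ≤ ρ / 2)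
    (H1 : ∀ t ∈ Icc (0:ℝ) r, ∀ z1 z2 : ℝ, e0 + t • w + z1 • u ∈ K → e0 + t • w + z2 • u ∈ K →
      z2 - z1 ≤ L * (1 - t / r) + η / 2)
    (H2 : ∀ t z1 z2 : ℝ, e0 + t • w + z1 • u ∈ K → e0 + t • w + z2 • u ∈ K →
      z2 - z1 ≤ L + η / 2) :
    ∃ e ξ1 ξ2 : E, (e = e0 ∨ e = e0 + L • u) ∧ ‖ξ1‖ = 1 ∧ ‖ξ2‖ = 1 ∧
      (∀ y ∈ K, inner ℝ ξ1 (y - e) ≤ η) ∧ (∀ y ∈ K, inner ℝ ξ2 (y - e) ≤ η) ∧
      (ρ ^ 7 / (1680 * R ^ 7)) ^ 2 ≤ 1 - (inner ℝ ξ1 ξ2) ^ 2 :=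
  sharp_end_core K hKconv hKcomp c ρ R hρ hball hKR u w e0 hu hw huw
    (fun u' h sg1 sg2 hu' huw' hdist hpl h1 h2 =>
      Vale.Agent.H93.GenK.sharp_of_two_slopes K hKconv c ρ R hρ hball u' w e0 hu' hw huw'
        h sg1 sg2 hdist hpl h1 h2)
    L η r hη hηL hLlow hrlow hchord hrK hrmax hplane H1 H2

/-- LEMMA S, STEPS 2 and 3 with `ρ ≤ L`: a good ray gives a sharp end of the chord, constant
`ρ⁵ / (3000 R⁵)`. -/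
theorem sharp_end_of_good_ray_rho (K : Set E) (hKconv : Convex ℝ K) (hKcomp : IsCompact K)
    (c : E) (ρ R : ℝ) (hρ : 0 < ρ) (hball : closedBall c ρ ⊆ K) (hKR : K ⊆ closedBall c R)
    (u w e0 : E) (hu : ‖u‖ = 1) (hw : ‖w‖ = 1) (huw : inner ℝ u w = 0)
    (L η r : ℝ) (hη : 0 < η) (hηL : η ≤ L / 2) (hLlow : ρ ≤ L)
    (hrlow : ρ / 2 ≤ r)
    (hchord : ∀ z : ℝ, e0 + z • u ∈ K ↔ 0 ≤ z ∧ z ≤ L)
    (hrK : ∃ z : ℝ, e0 + r • w + z • u ∈ K)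
    (hrmax : ∀ t z : ℝ, e0 + t • w + z • u ∈ K → t ≤ r)
    (hplane : ‖(c - e0) - inner ℝ (c - e0) w • w - inner ℝ (c - e0) u • u‖ ≤ ρ / 2)
    (H1 : ∀ t ∈ Icc (0:ℝ) r, ∀ z1 z2 : ℝ, e0 + t • w + z1 • u ∈ K → e0 + t • w + z2 • u ∈ K →
      z2 - z1 ≤ L * (1 - t / r) + η / 2)
    (H2 : ∀ t z1 z2 : ℝ, e0 + t • w + z1 • u ∈ K → e0 + t • w + z2 • u ∈ K →
      z2 - z1 ≤ L + η / 2) :
    ∃ e ξ1 ξ2 : E, (e = e0 ∨ e = e0 + L • u) ∧ ‖ξ1‖ = 1 ∧ ‖ξ2‖ = 1 ∧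
      (∀ y ∈ K, inner ℝ ξ1 (y - e) ≤ η) ∧ (∀ y ∈ K, inner ℝ ξ2 (y - e) ≤ η) ∧
      (ρ ^ 5 / (3000 * R ^ 5)) ^ 2 ≤ 1 - (inner ℝ ξ1 ξ2) ^ 2 :=
  sharp_end_core_rho K hKconv hKcomp c ρ R hρ hball hKR u w e0 hu hw huw
    (fun u' h sg1 sg2 hu' huw' hdist hpl h1 h2 =>
      Vale.Agent.H93.GenK.sharp_of_two_slopes K hKconv c ρ R hρ hball u' w e0 hu' hw huw'
        h sg1 sg2 hdist hpl h1 h2)
    L η r hη hηL hLlow hrlow hchord hrK hrmax hplane H1 H2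

end Vale.Agent.H24.P243N
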